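import Vale.Agent.P146.H605.Defs2

/-!
# P146: the lower tail at speed `n²`, cubic rate

From the Laplace bound for the lower tail at all noise levels `t` and a bound `K(t) ≤ C/(1-t)` of
the covariance at every fixed `t < 1`.
-/

open MeasureTheory ProbabilityTheory Filter Topology

namespace Vale.Agent.P146.R2.H107

open Vale.Agent.P146 Vale.Agent.P146.H605

/-- The Laplace bound for the lower tail. -/
def LB (β : ℝ) : Prop := ∀ n : ℕ, 1 ≤ n → ∀ t ∈ Set.Icc (0 : ℝ) 1, ∀ x : ℝ, 0 ≤ x →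
  ∫ g, Real.exp (-(x * (freeEnergy n β g - ∫ h, freeEnergy n β h ∂(disorder n))))
      ∂(disorder n) ≤
    Real.exp (x * ((1 - t) * (β ^ 2 * n / 4)) + x ^ 2 / 2 * crossCov n β t)

/-! ### The free energy is at least `n log 2` -/

lemma sum_pair {n : ℕ} (p : Pair n) :
    ∑ σ : Fin n → ℤˣ, ((σ p.1.1 : ℤ) : ℝ) * ((σ p.1.2 : ℤ) : ℝ) = 0 := by
  classical
  set u : Fin n → ℤˣ := Function.update 1 p.1.1 (-1) with hu
  have hne : p.1.2 ≠ p.1.1 := ne_of_gt p.2
  have h1 : ∑ σ : Fin n → ℤˣ, ((σ p.1.1 : ℤ) : ℝ) * ((σ p.1.2 : ℤ) : ℝ) =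
      ∑ σ : Fin n → ℤˣ, (((u * σ) p.1.1 : ℤˣ) : ℝ) * (((u * σ) p.1.2 : ℤˣ) : ℝ) := by
    exact (Equiv.sum_comp (Equiv.mulLeft u) fun σ : Fin n → ℤˣ =>
      ((σ p.1.1 : ℤ) : ℝ) * ((σ p.1.2 : ℤ) : ℝ)).symm
  have h2 : ∀ σ : Fin n → ℤˣ, (((u * σ) p.1.1 : ℤˣ) : ℝ) * (((u * σ) p.1.2 : ℤˣ) : ℝ) =
      -(((σ p.1.1 : ℤ) : ℝ) * ((σ p.1.2 : ℤ) : ℝ)) := by
    intro σ
    have e1 : (u * σ) p.1.1 = -σ p.1.1 := by simp [hu]
    have e2 : (u * σ) p.1.2 = σ p.1.2 := by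
      simp [hu, Function.update_of_ne hne]
    rw [e1, e2]
    push_cast
    ring
  rw [Finset.sum_congr rfl fun σ _ => h2 σ, Finset.sum_neg_distrib] at h1
  linarith

lemma sum_hamiltonian {n : ℕ} (g : Pair n → ℝ) : ∑ σ : Fin n → ℤˣ, hamiltonian n g σ = 0 := by
  unfold hamiltonian
  rw [← Finset.mul_sum, Finset.sum_comm]
  have h : ∀ p : Pair n, ∑ σ : Fin n → ℤˣ, g p * ((σ p.1.1 : ℤ) : ℝ) * ((σ p.1.2 : ℤ) : ℝ) = 0 := by
    intro p
    simp_rw [mul_assoc]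
    rw [← Finset.mul_sum, sum_pair, mul_zero]
  simp [h]

lemma card_spins (n : ℕ) : (Fintype.card (Fin n → ℤˣ) : ℝ) = 2 ^ n := by
  simp

lemma le_partitionFn (n : ℕ) (β : ℝ) (g : Pair n → ℝ) : (2 : ℝ) ^ n ≤ partitionFn n β g := by
  have h1 : ∑ σ : Fin n → ℤˣ, (β * hamiltonian n g σ + 1) ≤ partitionFn n β g :=
    Finset.sum_le_sum fun σ _ => Real.add_one_le_exp _
  rw [Finset.sum_add_distrib, ← Finset.mul_sum, sum_hamiltonian, mul_zero, zero_add] at h1
  have h2 : ∑ _σ : Fin n → ℤˣ, (1 : ℝ) = 2 ^ n := by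
    rw [Finset.sum_const, Finset.card_univ, nsmul_eq_mul, mul_one, card_spins]
  rwa [h2] at h1

lemma le_freeEnergy (n : ℕ) (β : ℝ) (g : Pair n → ℝ) : n * Real.log 2 ≤ freeEnergy n β g := by
  unfold freeEnergy
  rw [← Real.log_pow]
  exact Real.log_le_log (by positivity) (le_partitionFn n β g)

lemma measurable_freeEnergy' (n : ℕ) (β : ℝ) : Measurable (freeEnergy n β) := by
  unfold freeEnergy partitionFn hamiltonian
  fun_prop

instance isProb (n : ℕ) : IsProbabilityMeasure (disorder n) := by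
  unfold disorder
  infer_instance

lemma integrable_exp_neg (n : ℕ) (β : ℝ) {x : ℝ} (hx : 0 ≤ x) (m : ℝ) :
    Integrable (fun g => Real.exp (-(x * (freeEnergy n β g - m)))) (disorder n) := by
  refine Integrable.of_bound (C := Real.exp (-(x * (n * Real.log 2 - m)))) ?_ ?_
  · exact (Real.measurable_exp.comp
      (((measurable_freeEnergy' n β).sub_const m).const_mul x).neg).aestronglyMeasurable
  · refine Eventually.of_forall fun g => ?_
    rw [Real.norm_of_nonneg (Real.exp_pos _).le]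
    refine Real.exp_le_exp.2 ?_
    have := mul_le_mul_of_nonneg_left (sub_le_sub_right (le_freeEnergy n β g) m) hx
    linarith

/-! ### The tail at one noise level -/

/-- The Gaussian optimisation: the lower tail from the Laplace bound at the noise level `t`. -/
theorem tail_core {β : ℝ} (hLB : LB β) {n : ℕ} (hn : 1 ≤ n) {t : ℝ} (ht : t ∈ Set.Icc (0 : ℝ) 1)
    {p s s' K : ℝ} (hK : 0 < K) (hcov : crossCov n β t ≤ K)
    (hs' : (1 - t) * (β ^ 2 / 4) ≤ s')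
    (hE : n * (p - (s - s')) ≤ ∫ h, freeEnergy n β h ∂(disorder n)) :
    (disorder n).real {g | freeEnergy n β g ≤ n * (p - s)} ≤
      Real.exp (-(n ^ 2 * (s' - (1 - t) * (β ^ 2 / 4)) ^ 2 / (2 * K))) := by
  set E := ∫ h, freeEnergy n β h ∂(disorder n) with hEdef
  set w := s' - (1 - t) * (β ^ 2 / 4) with hw
  have hw0 : 0 ≤ w := by linarith
  have hn0 : (0 : ℝ) < n := by exact_mod_cast hn
  set x := n * w / K with hxdef
  have hx : 0 ≤ x := by positivity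
  have hint := integrable_exp_neg n β hx E
  -- Markov
  have h1 : (disorder n).real {g | freeEnergy n β g ≤ n * (p - s)} ≤
      (disorder n).real {g | Real.exp (x * (n * s')) ≤
        Real.exp (-(x * (freeEnergy n β g - E)))} := by
    refine measureReal_mono (fun g hg => ?_) (measure_ne_top _ _)
    replace hg : freeEnergy n β g ≤ n * (p - s) := hg
    refine (Real.exp_le_exp.2 ?_ : Real.exp (x * (n * s')) ≤
        Real.exp (-(x * (freeEnergy n β g - E))))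
    have : n * s' ≤ -(freeEnergy n β g - E) := by nlinarith
    have := mul_le_mul_of_nonneg_left this hx
    linarith
  have h2 : Real.exp (x * (n * s')) * (disorder n).real {g | Real.exp (x * (n * s')) ≤
        Real.exp (-(x * (freeEnergy n β g - E)))} ≤
      ∫ g, Real.exp (-(x * (freeEnergy n β g - E))) ∂(disorder n) :=
    mul_meas_ge_le_integral_of_nonneg (Eventually.of_forall fun g => (Real.exp_pos _).le) hint _
  have h3 := hLB n hn t ht x hx
  have h4 : Real.exp (x * (n * s')) * (disorder n).real {g | freeEnergy n β g ≤ n * (p - s)} ≤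
      Real.exp (x * ((1 - t) * (β ^ 2 * n / 4)) + x ^ 2 / 2 * crossCov n β t) :=
    (mul_le_mul_of_nonneg_left h1 (Real.exp_pos _).le).trans (h2.trans h3)
  have h5 : (disorder n).real {g | freeEnergy n β g ≤ n * (p - s)} ≤
      Real.exp (x * ((1 - t) * (β ^ 2 * n / 4)) + x ^ 2 / 2 * crossCov n β t - x * (n * s')) := by
    rw [Real.exp_sub, le_div_iff₀ (Real.exp_pos _), mul_comm]
    exact h4
  refine h5.trans (Real.exp_le_exp.2 ?_)
  have h6 : x ^ 2 / 2 * crossCov n β t ≤ x ^ 2 / 2 * K :=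
    mul_le_mul_of_nonneg_left hcov (by positivity)
  have h7 : x * ((1 - t) * (β ^ 2 * n / 4)) - x * (n * s') = -(x * n * w) := by
    rw [hw]; ring
  have h8 : x ^ 2 / 2 * K - x * n * w = -(n ^ 2 * w ^ 2 / (2 * K)) := by
    rw [hxdef]
    field_simp
    ring
  linarith

/-! ### From the limiting covariance to `C / (1 - t)` -/

/-- A function `κ` on `[0,1)` which is monotone and for which `(1-t) κ(t)` converges at `1` is
bounded by `C/(1-t)`. -/
lemma bound_of_tendsto {κ : ℝ → ℝ} {L : ℝ}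
    (hmono : ∀ s t : ℝ, 0 ≤ s → s ≤ t → t < 1 → κ s ≤ κ t)
    (hL : Tendsto (fun t : ℝ => (1 - t) * κ t) (𝓝[<] 1) (𝓝 L)) :
    ∃ C : ℝ, 0 < C ∧ ∀ t : ℝ, 0 ≤ t → t < 1 → κ t < C / (1 - t) := by
  have h1 : ∀ᶠ t in 𝓝[<] (1 : ℝ), (1 - t) * κ t < L + 1 :=
    hL.eventually_lt_const (by linarith)
  obtain ⟨δ, hδ, hδ1⟩ : ∃ a : ℝ, a < 1 ∧ ∀ t, a < t → t < 1 → (1 - t) * κ t < L + 1 := by
    rw [eventually_nhdsWithin_iff] at h1
    obtain ⟨ε, hε, h⟩ := Metric.eventually_nhds_iff.1 h1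
    refine ⟨1 - ε, by linarith, fun t ht1 ht2 => h ?_ ht2⟩
    rw [Real.dist_eq, abs_lt]
    constructor <;> linarith
  set r := max ((δ + 1) / 2) (1 / 2) with hr
  have hr1 : r < 1 := max_lt (by linarith) (by norm_num)
  have hr0 : 0 ≤ r := le_max_of_le_right (by norm_num)
  have hrδ : δ < r := lt_max_of_lt_left (by linarith)
  refine ⟨max (L + 1) (|κ r| + 1), lt_max_of_lt_right (by positivity), fun t ht0 ht1 => ?_⟩
  rw [lt_div_iff₀ (by linarith : (0 : ℝ) < 1 - t)]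
  rcases lt_or_ge δ t with h | h
  · rw [mul_comm]
    exact (hδ1 t h ht1).trans_le (le_max_left _ _)
  · have h2 : κ t ≤ |κ r| := (hmono t r ht0 (h.trans hrδ.le) hr1).trans (le_abs_self _)
    have h3 : κ t * (1 - t) ≤ |κ r| := by
      have : κ t * (1 - t) ≤ |κ r| * (1 - t) := mul_le_mul_of_nonneg_right h2 (by linarith)
      have : |κ r| * (1 - t) ≤ |κ r| * 1 :=
        mul_le_mul_of_nonneg_left (by linarith) (abs_nonneg _)
      linarith
    exact lt_of_lt_of_le (by linarith : κ t * (1 - t) < |κ r| + 1) (le_max_right _ _)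

/-- **Cubic rate.** -/
theorem up3_core {β : ℝ} (hβ : 0 < β) {p : ℝ} (hLB : LB β)
    (hp : Tendsto (fun n : ℕ => (∫ g, freeEnergy n β g ∂(disorder n)) / n) atTop (𝓝 p))
    (hmon : ∀ n : ℕ, 1 ≤ n → ∀ s t : ℝ, 0 ≤ s → s ≤ t → t ≤ 1 → crossCov n β s ≤ crossCov n β t)
    {κ : ℝ → ℝ} (hκ : ∀ t : ℝ, 0 ≤ t → t < 1 →
      Tendsto (fun n : ℕ => crossCov n β t) atTop (𝓝 (κ t)))
    {L : ℝ} (hL : Tendsto (fun t : ℝ => (1 - t) * κ t) (𝓝[<] 1) (𝓝 L)) :
    ∃ k : ℝ, 0 < k ∧ ∀ s : ℝ, 0 < s → s ≤ β ^ 2 → ∀ᶠ n : ℕ in atTop,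
      (disorder n).real {g | freeEnergy n β g ≤ n * (p - s)} ≤
        Real.exp (-(k * s ^ 3 * n ^ 2)) := by
  have hκm : ∀ s t : ℝ, 0 ≤ s → s ≤ t → t < 1 → κ s ≤ κ t := fun s t h0 hst h1 =>
    le_of_tendsto_of_tendsto (hκ s h0 (hst.trans_lt h1)) (hκ t (h0.trans hst) h1)
      ((eventually_ge_atTop 1).mono fun n hn => hmon n hn s t h0 hst h1.le)
  obtain ⟨C, hC, hb⟩ := bound_of_tendsto hκm hL
  refine ⟨1 / (32 * (C * β ^ 2)), by positivity, fun s hs hsβ => ?_⟩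
  set t := 1 - s / β ^ 2 with ht
  have hβ2 : 0 < β ^ 2 := by positivity
  have h1t : 1 - t = s / β ^ 2 := by rw [ht]; ring
  have ht1 : t < 1 := by rw [ht]; linarith [div_pos hs hβ2]
  have ht0 : 0 ≤ t := by
    rw [ht]
    linarith [(div_le_one hβ2).2 hsβ]
  have hK : 0 < C * β ^ 2 / s := by positivity
  have e1 : C / (1 - t) = C * β ^ 2 / s := by
    rw [h1t]
    field_simp
  have h2 : ∀ᶠ n : ℕ in atTop, crossCov n β t < C * β ^ 2 / s := by
    refine (hκ t ht0 ht1).eventually_lt_const ?_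
    rw [← e1]
    exact hb t ht0 ht1
  have h3 : ∀ᶠ n : ℕ in atTop, p - s / 2 < (∫ g, freeEnergy n β g ∂(disorder n)) / n :=
    hp.eventually_const_lt (by linarith)
  filter_upwards [h2, h3, eventually_ge_atTop 1] with n h2 h3 hn
  have hn0 : (0 : ℝ) < n := by exact_mod_cast hn
  have hE : n * (p - (s - s / 2)) ≤ ∫ h, freeEnergy n β h ∂(disorder n) := by
    rw [lt_div_iff₀ hn0] at h3
    nlinarith
  have e2 : (1 - t) * (β ^ 2 / 4) = s / 4 := by
    rw [h1t]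
    field_simp
  have h4 := tail_core hLB hn ⟨ht0, ht1.le⟩ (p := p) (s := s) (s' := s / 2) hK h2.le
    (by rw [e2]; linarith) hE
  refine h4.trans (Real.exp_le_exp.2 ?_)
  rw [e2]
  have e3 : (n : ℝ) ^ 2 * (s / 2 - s / 4) ^ 2 / (2 * (C * β ^ 2 / s)) =
      1 / (32 * (C * β ^ 2)) * s ^ 3 * n ^ 2 := by
    field_simp
    ring
  rw [e3]

end Vale.Agent.P146.R2.H107
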