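import Vale.Agent.P146.R2.H107.Up3s
import Vale.Agent.P146.R2.H453.Lo2
import Vale.Agent.Results.P146.ExactChaos

/-!
# P146: the lower tail at speed `n²`, cubic rate, unconditional form
-/

open MeasureTheory ProbabilityTheory Filter Topology

namespace Vale.Agent.P146.R2.H107

open Vale.Agent.P146 Vale.Agent.P146.H605 Vale.Agent.P146.R3

theorem lb (β : ℝ) : LB β := fun _ hn _ ht _ hx => H453.Lo.sk_LB _ hn ht.1 ht.2 hx

/-- Cubic rate, every fixed `s ∈ (0, β²]`. -/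
theorem up3 {β : ℝ} (hβ : 1 < β) {p : ℝ}
    (hp : Tendsto (fun n : ℕ => (∫ g, freeEnergy n β g ∂(disorder n)) / n) atTop (𝓝 p)) :
    ∃ k : ℝ, 0 < k ∧ ∀ s : ℝ, 0 < s → s ≤ β ^ 2 → ∀ᶠ n : ℕ in atTop,
      (disorder n).real {g | freeEnergy n β g ≤ n * (p - s)} ≤
        Real.exp (-(k * s ^ 3 * n ^ 2)) := by
  obtain ⟨a, -, h⟩ := Vale.Agent.Results.P146.ExactChaos.result
  obtain ⟨ha, q, x, h1, h2, h3, h4, h5, h6, h7, h8, h9, h10, h11, -⟩ := h β hβ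
  exact up3_core (by linarith) (lb β) hp
    (fun n hn s t h0 hst h1 => crossCov_mono n β hn h0 hst h1)
    (κ := covLim β x) (fun t h0 h1 => (h11 t h0 h1).2) h10

/-- Cubic rate with its constant: there is `a : ℝ → ℝ` with `a(β) → 2` as `β → 1+`, such that for
every `ε > 0` and all small `s > 0` the lower tail at `n (p - s)` is at most
`exp (-(32 a(β) / (27 π β³) - ε) s³ n²)` for large `n`. -/
theorem up3_const : ∃ a : ℝ → ℝ, Tendsto a (𝓝[>] 1) (𝓝 2) ∧ ∀ β : ℝ, 1 < β → 0 < a β ∧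
    ∀ p : ℝ, Tendsto (fun n : ℕ => (∫ g, freeEnergy n β g ∂(disorder n)) / n) atTop (𝓝 p) →
    (∃ k : ℝ, 0 < k ∧ ∀ s : ℝ, 0 < s → s ≤ β ^ 2 → ∀ᶠ n : ℕ in atTop,
      (disorder n).real {g | freeEnergy n β g ≤ n * (p - s)} ≤
        Real.exp (-(k * s ^ 3 * n ^ 2))) ∧
    ∀ ε : ℝ, 0 < ε → ∃ δ : ℝ, 0 < δ ∧ ∀ s : ℝ, 0 < s → s ≤ δ → ∀ᶠ n : ℕ in atTop,
      (disorder n).real {g | freeEnergy n β g ≤ n * (p - s)} ≤
        Real.exp (-((32 * a β / (27 * Real.pi * β ^ 3) - ε) * s ^ 3 * n ^ 2)) := by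
  obtain ⟨a, ha2, h⟩ := Vale.Agent.Results.P146.ExactChaos.result
  refine ⟨a, ha2, fun β hβ => ?_⟩
  obtain ⟨ha, q, x, h1, h2, h3, h4, h5, h6, h7, h8, h9, h10, h11, -⟩ := h β hβ
  have hβ0 : 0 < β := by linarith
  refine ⟨ha, fun p hp => ⟨up3 hβ hp, fun ε hε => ?_⟩⟩
  have hL0 : 0 < Real.pi * β / (4 * a β) := by
    have := Real.pi_pos
    positivity
  have h12 := up3_sharp hβ0 (lb β) hp (κ := covLim β x) (fun t h0 h1 => (h11 t h0 h1).2) hL0 h10 hε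
  have e : 8 / (27 * β ^ 2 * (Real.pi * β / (4 * a β))) = 32 * a β / (27 * Real.pi * β ^ 3) := by
    have := Real.pi_pos
    field_simp
    ring
  rwa [e] at h12

end Vale.Agent.P146.R2.H107
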