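import Vale.Agent.P146.R2.H107.Up3

/-!
# P146: the lower tail at speed `n²`, cubic rate with the explicit constant for small `s`
-/

open MeasureTheory ProbabilityTheory Filter Topology

namespace Vale.Agent.P146.R2.H107

open Vale.Agent.P146 Vale.Agent.P146.H605

/-- **Cubic rate with constant.** If `(1-t) κ(t) → L > 0` then for every `ε > 0` and all small
`s > 0` the lower tail at `n (p - s)` is at most `exp (-(8/(27 β² L) - ε) s³ n²)` for large `n`. -/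
theorem up3_sharp {β : ℝ} (hβ : 0 < β) {p : ℝ} (hLB : LB β)
    (hp : Tendsto (fun n : ℕ => (∫ g, freeEnergy n β g ∂(disorder n)) / n) atTop (𝓝 p))
    {κ : ℝ → ℝ} (hκ : ∀ t : ℝ, 0 ≤ t → t < 1 →
      Tendsto (fun n : ℕ => crossCov n β t) atTop (𝓝 (κ t)))
    {L : ℝ} (hL0 : 0 < L) (hL : Tendsto (fun t : ℝ => (1 - t) * κ t) (𝓝[<] 1) (𝓝 L))
    {ε : ℝ} (hε : 0 < ε) :
    ∃ δ : ℝ, 0 < δ ∧ ∀ s : ℝ, 0 < s → s ≤ δ → ∀ᶠ n : ℕ in atTop,
      (disorder n).real {g | freeEnergy n β g ≤ n * (p - s)} ≤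
        Real.exp (-((8 / (27 * β ^ 2 * L) - ε) * s ^ 3 * n ^ 2)) := by
  have hβ2 : 0 < β ^ 2 := by positivity
  -- choose `η`
  obtain ⟨η, hη, hη1, hc⟩ : ∃ η : ℝ, 0 < η ∧ η ≤ 1 / 3 ∧
      8 / (27 * β ^ 2 * L) - ε ≤ (2 / 3 - η) ^ 2 * (2 / (3 * β ^ 2 * (L * (1 + η)))) := by
    have hcont : Tendsto (fun η : ℝ => (2 / 3 - η) ^ 2 * (2 / (3 * β ^ 2 * (L * (1 + η)))))
        (𝓝[>] 0) (𝓝 ((2 / 3 - 0) ^ 2 * (2 / (3 * β ^ 2 * (L * (1 + 0)))))) := by
      refine tendsto_nhdsWithin_of_tendsto_nhds (ContinuousAt.tendsto ?_)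
      refine ContinuousAt.mul (by fun_prop) (ContinuousAt.div (by fun_prop) (by fun_prop) ?_)
      have : 0 < 3 * β ^ 2 * (L * (1 + 0)) := by positivity
      exact this.ne'
    have e : (2 / 3 - 0 : ℝ) ^ 2 * (2 / (3 * β ^ 2 * (L * (1 + 0)))) = 8 / (27 * β ^ 2 * L) := by
      field_simp
      ring
    rw [e] at hcont
    have h1 := hcont.eventually_const_lt (by linarith : 8 / (27 * β ^ 2 * L) - ε <
      8 / (27 * β ^ 2 * L))
    have h2 : ∀ᶠ η : ℝ in 𝓝[>] 0, 0 < η := eventually_mem_nhdsWithin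
    have h3 : ∀ᶠ η : ℝ in 𝓝[>] 0, η ≤ 1 / 3 :=
      tendsto_nhdsWithin_of_tendsto_nhds tendsto_id |>.eventually_le_const (by norm_num)
    obtain ⟨η, h⟩ := (h1.and (h2.and h3)).exists
    exact ⟨η, h.2.1, h.2.2, h.1.le⟩
  -- choose `δ`
  have hLη : L < L * (1 + η) := by nlinarith
  obtain ⟨r, hr, hr1⟩ : ∃ r : ℝ, 0 < r ∧ ∀ t, 1 - r < t → t < 1 →
      (1 - t) * κ t < L * (1 + η) := by
    have h1 : ∀ᶠ t in 𝓝[<] (1 : ℝ), (1 - t) * κ t < L * (1 + η) := hL.eventually_lt_const hLη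
    rw [eventually_nhdsWithin_iff] at h1
    obtain ⟨e, he, h⟩ := Metric.eventually_nhds_iff.1 h1
    refine ⟨e, he, fun t ht1 ht2 => h ?_ ht2⟩
    rw [Real.dist_eq, abs_lt]
    constructor <;> linarith
  refine ⟨min (3 * β ^ 2 / 4) (3 * β ^ 2 / 4 * (r / 2)), by positivity, fun s hs hsδ => ?_⟩
  have hs1 : s ≤ 3 * β ^ 2 / 4 := hsδ.trans (min_le_left _ _)
  have hs2 : s ≤ 3 * β ^ 2 / 4 * (r / 2) := hsδ.trans (min_le_right _ _)
  set t := 1 - 4 * s / (3 * β ^ 2) with ht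
  have h1t : 1 - t = 4 * s / (3 * β ^ 2) := by rw [ht]; ring
  have hpos : 0 < 4 * s / (3 * β ^ 2) := by positivity
  have ht1 : t < 1 := by linarith
  have ht0 : 0 ≤ t := by
    have : 4 * s / (3 * β ^ 2) ≤ 1 := by
      rw [div_le_one (by positivity)]
      linarith
    linarith
  have htr : 1 - r < t := by
    have : 4 * s / (3 * β ^ 2) ≤ r / 2 := by
      rw [div_le_iff₀ (by positivity)]
      linarith
    linarith
  set K := L * (1 + η) / (1 - t) with hK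
  have hK0 : 0 < K := div_pos (by positivity) (by linarith)
  have h2 : ∀ᶠ n : ℕ in atTop, crossCov n β t < K := by
    refine (hκ t ht0 ht1).eventually_lt_const ?_
    rw [hK, lt_div_iff₀ (by linarith), mul_comm]
    exact hr1 t htr ht1
  have h3 : ∀ᶠ n : ℕ in atTop, p - η * s < (∫ g, freeEnergy n β g ∂(disorder n)) / n :=
    hp.eventually_const_lt (by nlinarith)
  filter_upwards [h2, h3, eventually_ge_atTop 1] with n h2 h3 hn
  have hn0 : (0 : ℝ) < n := by exact_mod_cast hn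
  have hE : n * (p - (s - (1 - η) * s)) ≤ ∫ h, freeEnergy n β h ∂(disorder n) := by
    rw [lt_div_iff₀ hn0] at h3
    have e : n * (p - (s - (1 - η) * s)) = (p - η * s) * n := by ring
    rw [e]
    exact h3.le
  have e2 : (1 - t) * (β ^ 2 / 4) = s / 3 := by
    rw [h1t]
    field_simp
  have h4 := tail_core hLB hn ⟨ht0, ht1.le⟩ (p := p) (s := s) (s' := (1 - η) * s) hK0 h2.le
    (by rw [e2]; nlinarith) hE
  refine h4.trans (Real.exp_le_exp.2 ?_)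
  rw [e2]
  have e3 : (n : ℝ) ^ 2 * ((1 - η) * s - s / 3) ^ 2 / (2 * K) =
      (2 / 3 - η) ^ 2 * (2 / (3 * β ^ 2 * (L * (1 + η)))) * s ^ 3 * n ^ 2 := by
    rw [hK, h1t]
    field_simp
    ring
  rw [e3]
  have h5 : (8 / (27 * β ^ 2 * L) - ε) * (s ^ 3 * n ^ 2) ≤
      (2 / 3 - η) ^ 2 * (2 / (3 * β ^ 2 * (L * (1 + η)))) * (s ^ 3 * n ^ 2) :=
    mul_le_mul_of_nonneg_right hc (by positivity)
  linarith

end Vale.Agent.P146.R2.H107
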